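import Vale.Agent.P329.H62.Cls
import Vale.Agent.P329.H962.Rows

/-!
# P329, row (A): level sets of local functions have height at most one
-/

set_option linter.all false

namespace Vale.Agent.P329.H62.A

open Vale.Agent.P329 Vale.Agent.P329.H157 Vale.Agent.P329.H62
open Vale.Agent.P329.H259 (pw pw_zero pw_succ pw_one pw_add pw_succ' pw_mul pw_length FQ PP lq)

variable {α : Type} {p : ℕ}

/-- finitely many residuals -/
def FS (f : List α → ZMod p) : Prop := (Set.range fun X : List α => fun Y => f (Y ++ X)).Finite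

/-- no cut among the nonempty suffixes of `V`, over `X` -/
def Unc (w : List α → ZMod p) (V X : List α) : Prop :=
  ∀ A B, V = A ++ B → B ≠ [] → w (B ++ X) = 0

/-- aperiodic on uncut powers -/
def AP (w G : List α → ZMod p) : Prop :=
  ∀ v, ∃ N, ∀ n, N ≤ n → ∀ X Y, Unc w (pw v n) X →
    G (Y ++ pw v n ++ X) = G (Y ++ pw v (n + 1) ++ X)

open Classical in
/-- number of nonempty suffixes `B` of `S` with `w (B ++ c) ≠ 0` -/
noncomputable def nc (w : List α → ZMod p) : List α → List α → ℕ
  | [], _ => 0
  | b :: S, c => nc w S c + if w (b :: S ++ c) ≠ 0 then 1 else 0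

def Mem (w : List α → ZMod p) (n : ℕ) (G : List α → ZMod p) : Prop :=
  ∀ S c c', w c ≠ 0 → w c' ≠ 0 → n ≤ nc w S c → G (S ++ c) = G (S ++ c')

def Rt (w f : List α → ZMod p) : Prop :=
  ∀ r c c', w c ≠ 0 → w c' ≠ 0 → r ≠ [] → f (r ++ c) = f (r ++ c')

variable {w G ω : List α → ZMod p}

theorem nc_app (A B c : List α) : nc w (A ++ B) c = nc w A (B ++ c) + nc w B c := by
  induction A with
  | nil => simp [nc]
  | cons a A ih =>
    rw [List.cons_append, nc, ih, nc, List.cons_append, List.append_assoc, List.cons_append]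
    omega

theorem unc_iff {V X : List α} : Unc w V X ↔ nc w V X = 0 := by
  induction V with
  | nil =>
    refine ⟨fun _ => rfl, fun _ A B e hB => ?_⟩
    exact absurd (List.append_eq_nil_iff.mp e.symm).2 hB
  | cons b V ih =>
    rw [nc]
    constructor
    · intro h
      have h1 : Unc w V X := fun A B e hB => h (b :: A) B (by rw [e]; rfl) hB
      rw [ih.mp h1, if_neg (by simpa using h [] (b :: V) rfl (by simp))]
    · intro h A B e hB
      have h1 : nc w V X = 0 := by omega
      have h2 : ¬ w (b :: V ++ X) ≠ 0 := by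
        intro h3
        rw [if_pos h3] at h
        omega
      cases A with
      | nil =>
        rw [List.nil_append] at e
        rw [← e]
        simpa using h2
      | cons a A =>
        rw [List.cons_append, List.cons.injEq] at e
        exact ih.mpr h1 A B e.2 hB

/-- a long power with few cuts contains an uncut block -/
theorem block (V : List α) (M : ℕ) : ∀ (k n : ℕ) (X : List α), nc w (pw V n) X ≤ k →
    (k + 1) * M ≤ n → ∃ n1 n2, n = n1 + M + n2 ∧ Unc w (pw V M) (pw V n2 ++ X) := by
  intro k
  induction k with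
  | zero =>
    intro n X hk hn
    obtain ⟨m, rfl⟩ : ∃ m, n = m + M := ⟨n - M, by omega⟩
    rw [pw_add, nc_app] at hk
    exact ⟨m, 0, by omega, by rw [pw_zero, List.nil_append, unc_iff]; omega⟩
  | succ k ih =>
    intro n X hk hn
    have h2 : (k + 1 + 1) * M = (k + 1) * M + M := by ring
    obtain ⟨m, rfl⟩ : ∃ m, n = m + M := ⟨n - M, by omega⟩
    rw [pw_add, nc_app] at hk
    by_cases h0 : nc w (pw V M) X = 0
    · exact ⟨m, 0, by omega, by rw [pw_zero, List.nil_append, unc_iff]; exact h0⟩
    · obtain ⟨n1, n2, h3, h4⟩ := ih m (pw V M ++ X) (by omega) (by omega)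
      refine ⟨n1, n2 + M, by omega, ?_⟩
      rw [pw_add, List.append_assoc]
      exact h4

theorem pw_rev (v : List α) (n : ℕ) : (pw v n).reverse = pw v.reverse n := by
  induction n with
  | zero => rfl
  | succ n ih => rw [pw_succ, List.reverse_append, ih, ← pw_succ']

/-- finitely many left quotients of the level sets -/
theorem FS.fq (h : FS G) (c : List α) (a : ZMod p) : FQ {u : List α | G (u.reverse ++ c) = a} := by
  have h1 : (Set.range (lq {u : List α | G (u.reverse ++ c) = a})) ⊆
      (fun R : List α → ZMod p => {y : List α | R y.reverse = a}) ''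
        (Set.range fun X : List α => fun Y => G (Y ++ X)) := by
    rintro _ ⟨x, rfl⟩
    refine ⟨fun Y => G (Y ++ (x.reverse ++ c)), ⟨x.reverse ++ c, rfl⟩, ?_⟩
    ext y
    change G (y.reverse ++ (x.reverse ++ c)) = a ↔ G ((x ++ y).reverse ++ c) = a
    rw [List.reverse_append, List.append_assoc]
  exact (h.image _).subset h1

theorem FQ_inter {S T : Set (List α)} (hS : FQ S) (hT : FQ T) : FQ (S ∩ T) := by
  have h := (hS.compl.union hT.compl).compl
  rwa [Set.compl_union, compl_compl, compl_compl] at h

/-- windows: level sets of `G` inside a star-free set with boundedly many cuts -/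
theorem window [Finite α] (hF : FS G) (hA : AP w G) {K : Set (List α)} (hK : SH 0 K)
    (c : List α) {k : ℕ} (hb : ∀ s ∈ K, nc w s c ≤ k) (a : ZMod p) :
    SH 0 {s | s ∈ K ∧ G (s ++ c) = a} := by
  rw [← SH.rev_iff]
  have hK' : SH 0 {u : List α | u.reverse ∈ K} := SH.rev hK
  have e : {u : List α | u.reverse ∈ {s | s ∈ K ∧ G (s ++ c) = a}} =
      {u : List α | u.reverse ∈ K} ∩ {u : List α | G (u.reverse ++ c) = a} := rfl
  rw [e]
  apply sf_of
  · exact FQ_inter (SH.fq hK') (hF.fq c a)
  · intro v
    obtain ⟨N1, h1⟩ := SH.pp hK' v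
    obtain ⟨N2, h2⟩ := hA v.reverse
    refine ⟨max N1 ((k + 1) * (N2 + 1)), fun n hn x y => ?_⟩
    have hn1 : N1 ≤ n := (le_max_left _ _).trans hn
    have hn2 : (k + 1) * (N2 + 1) ≤ n := (le_max_right _ _).trans hn
    have h3 := h1 n hn1 x y
    have hr : ∀ m, (x ++ pw v m ++ y).reverse = y.reverse ++ pw v.reverse m ++ x.reverse := by
      intro m
      rw [List.reverse_append, List.reverse_append, pw_rev, List.append_assoc]
    have key : (x ++ pw v n ++ y).reverse ∈ K →
        G ((x ++ pw v n ++ y).reverse ++ c) = G ((x ++ pw v (n + 1) ++ y).reverse ++ c) := by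
      intro hs
      have h4 := hb _ hs
      rw [hr, nc_app, nc_app] at h4
      obtain ⟨n1, n2, h5, h6⟩ := block (w := w) v.reverse (N2 + 1) k n (x.reverse ++ c)
        (by omega) hn2
      have h7 := h2 (N2 + 1) (by omega) (pw v.reverse n2 ++ (x.reverse ++ c))
        (y.reverse ++ pw v.reverse n1) h6
      rw [hr, hr]
      have e1 : y.reverse ++ pw v.reverse n ++ x.reverse ++ c =
          y.reverse ++ pw v.reverse n1 ++ pw v.reverse (N2 + 1) ++
            (pw v.reverse n2 ++ (x.reverse ++ c)) := by
        rw [h5, pw_add, pw_add]; simp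
      have e2 : y.reverse ++ pw v.reverse (n + 1) ++ x.reverse ++ c =
          y.reverse ++ pw v.reverse n1 ++ pw v.reverse (N2 + 1 + 1) ++
            (pw v.reverse n2 ++ (x.reverse ++ c)) := by
        have : n + 1 = n1 + (N2 + 1 + 1) + n2 := by omega
        rw [this, pw_add, pw_add]; simp
      rw [e1, e2, h7]
    constructor
    · rintro ⟨hs, ha⟩
      exact ⟨h3.mp hs, by
        change G ((x ++ pw v (n + 1) ++ y).reverse ++ c) = a
        rw [← key hs]; exact ha⟩
    · rintro ⟨hs, ha⟩
      have hs' := h3.mpr hs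
      exact ⟨hs', by
        change G ((x ++ pw v n ++ y).reverse ++ c) = a
        rw [key hs']; exact ha⟩

/-- first cuts -/
def Fc (ω : List α → ZMod p) : Set (List α) :=
  {s | ω s ≠ 0 ∧ ∀ A B, s = A ++ B → A ≠ [] → ω B = 0}

theorem mem_Fc {Y X : List α} : Y ++ X ∈ Fc ω ↔
    (ω (Y ++ X) ≠ 0 ∧ ∀ A B, Y = A ++ B → A ≠ [] → ω (B ++ X) = 0) ∧
      ∀ A B, X = A ++ B → A ≠ [] → ω B = 0 := by
  constructor
  · rintro ⟨h1, h2⟩
    refine ⟨⟨h1, fun A B e hA => h2 A (B ++ X) (by rw [e, List.append_assoc]) hA⟩, ?_⟩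
    intro A B e hA
    exact h2 (Y ++ A) B (by rw [e, List.append_assoc]) (by simp [hA])
  · rintro ⟨⟨h1, h2⟩, h3⟩
    refine ⟨h1, fun A B e hA => ?_⟩
    rcases List.append_eq_append_iff.mp e with ⟨W, e1, e2⟩ | ⟨W, e1, e2⟩
    · -- A = Y ++ W, X = W ++ B
      by_cases hW : W = []
      · subst hW
        rw [List.append_nil] at e1
        rw [List.nil_append] at e2
        subst e1 e2
        have := h2 A [] (by simp) hA
        simpa using this
      · exact h3 W B e2 hW
    · -- Y = A ++ W, B = W ++ X
      subst e2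
      exact h2 A W e1 hA

/-- the set of first cuts is star-free -/
theorem Fc_sh [Finite α] (hF : FS ω) (hA : AP ω ω) : SH 0 (Fc ω) := by
  rw [← SH.rev_iff]
  apply sf_of
  · have h1 : (Set.range (lq {u : List α | u.reverse ∈ Fc ω})) ⊆
        (fun q : (List α → ZMod p) × Prop => {y : List α | (q.1 y.reverse ≠ 0 ∧
          ∀ A B, y.reverse = A ++ B → A ≠ [] → q.1 B = 0) ∧ q.2}) ''
          ((Set.range fun X : List α => fun Y => ω (Y ++ X)) ×ˢ Set.univ) := by
      rintro _ ⟨x, rfl⟩
      refine ⟨(fun Y => ω (Y ++ x.reverse), ∀ A B, x.reverse = A ++ B → A ≠ [] → ω B = 0),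
        ⟨⟨x.reverse, rfl⟩, trivial⟩, ?_⟩
      ext y
      change _ ↔ (x ++ y).reverse ∈ Fc ω
      rw [List.reverse_append, mem_Fc]
      exact Iff.rfl
    have h2 : (Set.univ : Set Prop).Finite := Set.toFinite _
    exact ((Set.Finite.prod hF h2).image _).subset h1
  · intro v
    by_cases hv : v = []
    · subst hv
      refine ⟨0, fun n _ x y => ?_⟩
      have h0 : ∀ m, pw ([] : List α) m = [] := by
        intro m
        induction m with
        | zero => rfl
        | succ m ih => rw [pw_succ, ih]; rfl
      rw [h0, h0]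
    obtain ⟨N, hN⟩ := hA v.reverse
    set V := v.reverse with hVdef
    have hV : V ≠ [] := by simpa [hVdef] using hv
    -- an uncut power gives uncut larger powers
    have up : ∀ m X, N ≤ m → Unc ω (pw V (m + 1)) X → Unc ω (pw V (m + 2)) X := by
      intro m X hm hu A B e hB
      rw [pw_succ] at e
      rcases List.append_eq_append_iff.mp e with ⟨W, e1, e2⟩ | ⟨W, e1, e2⟩
      · exact hu W B e2 hB
      · -- V = A ++ W, B = W ++ pw V (m+1)
        subst e2
        have h3 : Unc ω (pw V m) X := by
          intro A' B' e' hB'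
          exact hu (V ++ A') B' (by rw [pw_succ, e', List.append_assoc]) hB'
        have h4 := hN m hm X W h3
        rw [← h4]
        have h6 : pw V (m + 1) = A ++ (W ++ pw V m) := by
          rw [← List.append_assoc, ← e1, ← pw_succ]
        by_cases hW : W ++ pw V m = []
        · -- then the suffix is the whole power, which cannot be
          have hWn : W = [] := (List.append_eq_nil_iff.mp hW).1
          have hpm : pw V m = [] := (List.append_eq_nil_iff.mp hW).2
          subst hWn
          rw [hW, List.nil_append]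
          have h7 := hN m hm X [] h3
          rw [hpm, List.nil_append, List.nil_append, List.nil_append] at h7
          rw [h7]
          exact hu [] (pw V (m + 1)) rfl (by
            rw [pw_succ]
            intro h8
            exact hV (List.append_eq_nil_iff.mp h8).1)
        · exact hu A (W ++ pw V m) h6 hW
    have step : ∀ m X Y, N ≤ m → Unc ω (pw V (m + 1)) X →
        (Y ++ pw V (m + 2) ++ X ∈ Fc ω ↔ Y ++ pw V (m + 3) ++ X ∈ Fc ω) := by
      intro m X Y hm hu
      have hu2 := up m X hm hu
      have hu3 := up (m + 1) X (by omega) hu2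
      have hval : ∀ B, ω (B ++ pw V (m + 2) ++ X) = ω (B ++ pw V (m + 3) ++ X) :=
        fun B => hN (m + 2) (by omega) X B hu2
      rw [List.append_assoc, List.append_assoc, mem_Fc, mem_Fc]
      have hP : ∀ j, Unc ω (pw V (j + 1)) X → ((∀ A B, pw V (j + 1) ++ X = A ++ B → A ≠ [] →
          ω B = 0) ↔ ∀ A B, X = A ++ B → ω B = 0) := by
        intro j huj
        constructor
        · intro h A B e
          refine h (pw V (j + 1) ++ A) B (by rw [e, List.append_assoc]) ?_
          intro h8
          rw [pw_succ] at h8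
          exact hV (List.append_eq_nil_iff.mp (List.append_eq_nil_iff.mp h8).1).1
        · intro h A B e hA'
          rcases List.append_eq_append_iff.mp e with ⟨W, e1, e2⟩ | ⟨W, e1, e2⟩
          · exact h W B e2
          · by_cases hW : W = []
            · subst hW
              rw [List.nil_append] at e2
              exact h [] B (by rw [e2]; rfl)
            · rw [e2]
              exact huj A W e1 hW
      have hP2 := hP (m + 1) hu2
      have hP3 := hP (m + 2) hu3
      rw [show m + 1 + 1 = m + 2 from rfl] at hP2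
      rw [show m + 2 + 1 = m + 3 from rfl] at hP3
      rw [hP2, hP3]
      have hval' : ∀ B, ω (B ++ (pw V (m + 2) ++ X)) = ω (B ++ (pw V (m + 3) ++ X)) := by
        intro B
        rw [← List.append_assoc, ← List.append_assoc]
        exact hval B
      rw [hval']
      have hiff : (∀ A B, Y = A ++ B → A ≠ [] → ω (B ++ (pw V (m + 2) ++ X)) = 0) ↔
          ∀ A B, Y = A ++ B → A ≠ [] → ω (B ++ (pw V (m + 3) ++ X)) = 0 := by
        constructor
        · intro h A B e hA'; rw [← hval']; exact h A B e hA'
        · intro h A B e hA'; rw [hval']; exact h A B e hA'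
      rw [hiff]
    refine ⟨N + 3, fun n hn x y => ?_⟩
    obtain ⟨m, rfl⟩ : ∃ m, n = m + 2 := ⟨n - 2, by omega⟩
    have hr : ∀ m, (x ++ pw v m ++ y).reverse = y.reverse ++ pw V m ++ x.reverse := by
      intro m
      rw [List.reverse_append, List.reverse_append, pw_rev, List.append_assoc]
    change (x ++ pw v (m + 2) ++ y).reverse ∈ Fc ω ↔ (x ++ pw v (m + 2 + 1) ++ y).reverse ∈ Fc ω
    rw [hr, hr]
    have hun : ∀ j, m + 2 ≤ j → y.reverse ++ pw V j ++ x.reverse ∈ Fc ω →
        Unc ω (pw V (m + 1)) x.reverse := by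
      intro j hj h A B e hB
      obtain ⟨i, rfl⟩ : ∃ i, j = (i + 1) + (m + 1) := ⟨j - (m + 2), by omega⟩
      refine h.2 (y.reverse ++ pw V (i + 1) ++ A) (B ++ x.reverse) ?_ ?_
      · rw [pw_add V, e]; simp
      · intro h8
        have h9 := (List.append_eq_nil_iff.mp (List.append_eq_nil_iff.mp h8).1).2
        rw [pw_succ] at h9
        exact hV (List.append_eq_nil_iff.mp h9).1
    constructor
    · intro h
      exact (step m _ _ (by omega) (hun (m + 2) le_rfl h)).mp h
    · intro h
      exact (step m _ _ (by omega) (hun (m + 2 + 1) (by omega) h)).mpr h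

/-- the return weight over a fixed cut -/
noncomputable def om (w : List α → ZMod p) (c0 : List α) : List α → ZMod p :=
  open Classical in fun s => if s = [] then 0 else w (s ++ c0)

theorem om_nil (c0 : List α) : om w c0 [] = 0 := if_pos rfl

theorem om_ne {s : List α} (c0 : List α) (h : s ≠ []) : om w c0 s = w (s ++ c0) := if_neg h

theorem om_fs (h : FS w) (c0 : List α) : FS (om w c0) := by
  refine ((h.insert (fun Y => om w c0 (Y ++ []))).subset ?_)
  rintro _ ⟨X, rfl⟩
  by_cases hX : X = []
  · subst hX; exact Or.inl rfl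
  · refine Or.inr ⟨X ++ c0, ?_⟩
    funext Y
    change w (Y ++ (X ++ c0)) = om w c0 (Y ++ X)
    rw [om_ne c0 (by simp [hX]), List.append_assoc]

theorem om_ap (h : AP w w) (c0 : List α) : AP (om w c0) (om w c0) := by
  intro v
  by_cases hv : v = []
  · subst hv
    refine ⟨0, fun n _ X Y _ => ?_⟩
    have h0 : ∀ m, pw ([] : List α) m = [] := by
      intro m
      induction m with
      | zero => rfl
      | succ m ih => rw [pw_succ, ih]; rfl
    rw [h0, h0]
  · obtain ⟨N, hN⟩ := h v
    refine ⟨max N 1, fun n hn X Y hu => ?_⟩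
    have h1 : N ≤ n := (le_max_left _ _).trans hn
    have h2 : 1 ≤ n := (le_max_right _ _).trans hn
    have h3 : ∀ m, 1 ≤ m → pw v m ≠ [] := by
      intro m hm h8
      obtain ⟨j, rfl⟩ : ∃ j, m = j + 1 := ⟨m - 1, by omega⟩
      rw [pw_succ] at h8
      exact hv (List.append_eq_nil_iff.mp h8).1
    rw [om_ne c0 (by simp [h3 n h2]), om_ne c0 (by simp [h3 (n + 1) (by omega)])]
    have h4 := hN n h1 (X ++ c0) Y (by
      intro A B e hB
      have h5 := hu A B e hB
      rw [om_ne c0 (by simp [hB]), List.append_assoc] at h5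
      exact h5)
    simpa [List.append_assoc] using h4

theorem om_sh [Finite α] (h : FS w) (h' : AP w w) (c0 : List α) : SH 0 (Fc (om w c0)) :=
  Fc_sh (om_fs h c0) (om_ap h' c0)

/-- shortest suffixes -/
theorem short {f : List α → ZMod p} : ∀ (n : ℕ) (A B : List α), B.length ≤ n → f B ≠ 0 →
    ∃ A' B', A ++ B = A' ++ B' ∧ B' ∈ Fc f := by
  intro n
  induction n with
  | zero =>
    intro A B hn hB
    have : B = [] := List.length_eq_zero_iff.mp (by omega)
    subst this
    refine ⟨A, [], rfl, hB, fun A' B' e hA' => ?_⟩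
    exact absurd (List.append_eq_nil_iff.mp e.symm).1 hA'
  | succ n ih =>
    intro A B hn hB
    by_cases h : B ∈ Fc f
    · exact ⟨A, B, rfl, h⟩
    · have : ∃ A' B', B = A' ++ B' ∧ A' ≠ [] ∧ f B' ≠ 0 := by
        by_contra hne
        refine h ⟨hB, fun A' B' e hA' => ?_⟩
        by_contra hf
        exact hne ⟨A', B', e, hA', hf⟩
      obtain ⟨A', B', rfl, hA', hB'⟩ := this
      have hl : 0 < A'.length := List.length_pos_iff.mpr hA'
      rw [List.length_append] at hn
      obtain ⟨A2, B2, e, h2⟩ := ih (A ++ A') B' (by omega) hB'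
      exact ⟨A2, B2, by rw [← List.append_assoc]; exact e, h2⟩

theorem nc_rt (h : Rt w w) {c c' : List α} (hc : w c ≠ 0) (hc' : w c' ≠ 0) (s : List α) :
    nc w s c = nc w s c' := by
  induction s with
  | nil => rfl
  | cons b S ih => rw [nc, nc, ih, h (b :: S) c c' hc hc' (by simp)]

section Cuts

variable {c0 : List α}

theorem D_ne {d : List α} (hd : d ∈ Fc (om w c0)) : d ≠ [] := by
  rintro rfl
  exact hd.1 (om_nil c0)

theorem D_cut (h : Rt w w) (hc0 : w c0 ≠ 0) {d c : List α} (hd : d ∈ Fc (om w c0))
    (hc : w c ≠ 0) : w (d ++ c) ≠ 0 := by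
  have h1 := hd.1
  rw [om_ne c0 (D_ne hd)] at h1
  rwa [h d c c0 hc hc0 (D_ne hd)]

theorem D_nc {d : List α} (hd : d ∈ Fc (om w c0)) : nc w d c0 = 1 := by
  have h0 := D_ne hd
  cases d with
  | nil => exact absurd rfl h0
  | cons b S =>
    have h1 : nc w S c0 = 0 := by
      rw [← unc_iff]
      intro A B e hB
      rw [← om_ne (w := w) c0 hB]
      exact hd.2 (b :: A) B (by rw [e]; rfl) (by simp)
    have h2 := hd.1
    rw [om_ne c0 h0] at h2
    rw [nc, h1, if_pos h2]

theorem nc_D (h : Rt w w) (hc0 : w c0 ≠ 0) {d : List α} (hd : d ∈ Fc (om w c0)) (A : List α) :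
    nc w (A ++ d) c0 = nc w A c0 + 1 := by
  rw [nc_app, D_nc hd, nc_rt h (D_cut h hc0 hd hc0) hc0]

theorem nc_split (h : Rt w w) (hc0 : w c0 ≠ 0) {s : List α} {n : ℕ} (hs : nc w s c0 = n + 1) :
    ∃ A, ∃ d ∈ Fc (om w c0), s = A ++ d ∧ nc w A c0 = n := by
  have h1 : ¬ Unc w s c0 := by rw [unc_iff]; omega
  have h2 : ∃ A B, s = A ++ B ∧ B ≠ [] ∧ w (B ++ c0) ≠ 0 := by
    by_contra hne
    refine h1 fun A B e hB => ?_
    by_contra hf
    exact hne ⟨A, B, e, hB, hf⟩
  obtain ⟨A, B, rfl, hB, hwB⟩ := h2
  rw [← om_ne (w := w) c0 hB] at hwB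
  obtain ⟨A', B', e, hB'⟩ := short B.length A B le_rfl hwB
  refine ⟨A', B', hB', e, ?_⟩
  rw [e, nc_D h hc0 hB'] at hs
  omega

/-- words with `n` cuts over a cut -/
def Nn (w : List α → ZMod p) (c0 : List α) (n : ℕ) : Set (List α) := {s | nc w s c0 = n}

theorem Nn_sh [Finite α] (h1 : FS w) (h2 : AP w w) (h : Rt w w) (hc0 : w c0 ≠ 0) (n : ℕ) :
    SH 0 (Nn w c0 n) := by
  have hD := om_sh h1 h2 c0
  induction n with
  | zero =>
    have : Nn w c0 0 = (cat Set.univ (Fc (om w c0)))ᶜ := by
      ext s
      constructor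
      · rintro hs ⟨t, -, d, hd, rfl⟩
        have h3 : nc w (t ++ d) c0 = 0 := hs
        rw [nc_D h hc0 hd] at h3
        omega
      · intro hs
        by_contra hne
        have h3 : nc w s c0 ≠ 0 := hne
        obtain ⟨m, hm⟩ : ∃ m, nc w s c0 = m + 1 := ⟨nc w s c0 - 1, by omega⟩
        obtain ⟨A, d, hd, e, -⟩ := nc_split h hc0 hm
        exact hs ⟨A, trivial, d, hd, e.symm⟩
    rw [this]
    exact (SH.univ.cat hD).compl
  | succ n ih =>
    have : Nn w c0 (n + 1) = cat (Nn w c0 n) (Fc (om w c0)) := by
      ext s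
      constructor
      · intro hs
        obtain ⟨A, d, hd, e, hA⟩ := nc_split h hc0 hs
        exact ⟨A, hA, d, hd, e.symm⟩
      · rintro ⟨A, hA, d, hd, rfl⟩
        have hA' : nc w A c0 = n := hA
        change nc w (A ++ d) c0 = n + 1
        rw [nc_D h hc0 hd, hA']
    rw [this]
    exact ih.cat hD

theorem cut_eq (h : Rt w w) (hc0 : w c0 ≠ 0) :
    {c | w c ≠ 0} = cat (kst (Fc (om w c0))) (Fc w) := by
  ext c
  constructor
  · intro hc
    obtain ⟨A, i, e, hi⟩ := short c.length [] c le_rfl hc
    rw [List.nil_append] at e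
    subst e
    -- now show A ∈ kst D
    refine ⟨A, ?_, i, hi, rfl⟩
    have key : ∀ (n : ℕ) (A : List α), nc w A i = n → w (A ++ i) ≠ 0 →
        A ∈ kst (Fc (om w c0)) := by
      intro n
      induction n with
      | zero =>
        intro A hA hw
        have : A = [] := by
          by_contra hne
          have h3 := (unc_iff.mpr hA) [] A rfl hne
          exact hw h3
        subst this
        exact H259.kst_nil _
      | succ n ih =>
        intro A hA hw
        rw [nc_rt h hi.1 hc0] at hA
        obtain ⟨A', d, hd, rfl, hA'⟩ := nc_split h hc0 hA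
        refine H259.kst_append (ih A' ?_ ?_) (H259.kst_of_mem hd)
        · rw [nc_rt h hi.1 hc0]; exact hA'
        · by_cases hn : A' = []
          · subst hn; exact hi.1
          · rw [h A' i (d ++ i) hi.1 (D_cut h hc0 hd hi.1) hn, ← List.append_assoc]
            exact hw
    exact key _ A rfl hc
  · rintro ⟨A, ⟨L, hL, rfl⟩, i, hi, rfl⟩
    induction L with
    | nil => exact hi.1
    | cons d L ih =>
      have h1 := ih fun y hy => hL y (List.mem_cons_of_mem _ hy)
      have h2 := D_cut h hc0 (hL d List.mem_cons_self) h1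
      change w ((d :: L).flatten ++ i) ≠ 0
      rw [List.flatten_cons, List.append_assoc]
      exact h2

theorem cut_sh [Finite α] (h1 : FS w) (h2 : AP w w) (h : Rt w w) (hc0 : w c0 ≠ 0) :
    SH 1 {c | w c ≠ 0} := by
  rw [cut_eq h hc0]
  exact ((om_sh h1 h2 c0).kst).cat (Fc_sh h1 h2).of_zero

/-- words with at most `n` cuts -/
def Fw (w : List α → ZMod p) (n : ℕ) : Set (List α) :=
  {v | ∀ s c, v = s ++ c → w c ≠ 0 → nc w s c < n}

theorem Fw_sh [Finite α] (h1 : FS w) (h2 : AP w w) (h : Rt w w) (hc0 : w c0 ≠ 0) (n : ℕ) :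
    SH 0 (Fw w n) := by
  have hI := Fc_sh h1 h2
  induction n with
  | zero =>
    have : Fw w 0 = (cat Set.univ (Fc w))ᶜ := by
      ext v
      constructor
      · rintro hv ⟨t, -, i, hi, rfl⟩
        exact absurd (hv t i rfl hi.1) (Nat.not_lt_zero _)
      · intro hv s c e hc
        exfalso
        obtain ⟨A, i, e', hi⟩ := short c.length s c le_rfl hc
        exact hv ⟨A, trivial, i, hi, by rw [e, e']⟩
    rw [this]
    exact (SH.univ.cat hI).compl
  | succ n ih =>
    have : Fw w (n + 1) = Fw w n ∪ cat (Nn w c0 n) (Fc w) := by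
      ext v
      constructor
      · intro hv
        by_cases hv' : v ∈ Fw w n
        · exact Or.inl hv'
        · right
          have : ∃ s c, v = s ++ c ∧ w c ≠ 0 ∧ n ≤ nc w s c := by
            by_contra hne
            apply hv'
            intro s c e hc
            by_contra hlt
            exact hne ⟨s, c, e, hc, by omega⟩
          obtain ⟨s, c, e, hc, hn⟩ := this
          have h3 := hv s c e hc
          have h4 : nc w s c = n := by omega
          refine ⟨s, ?_, c, ⟨hc, fun A B e2 hA => ?_⟩, e.symm⟩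
          · change nc w s c0 = n
            rw [← nc_rt h hc hc0]; exact h4
          · by_contra hB
            subst e2
            have h5 := hv (s ++ A) B (by rw [e, List.append_assoc]) hB
            rw [nc_app] at h5
            cases A with
            | nil => exact hA rfl
            | cons a A =>
              rw [nc, if_pos (by simpa using hc)] at h5
              omega
      · rintro (hv | ⟨s, hs, i, hi, rfl⟩)
        · intro s c e hc
          have := hv s c e hc
          omega
        · intro s' c' e hc'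
          have hs' : nc w s c0 = n := hs
          rw [← nc_rt h hi.1 hc0] at hs'
          rcases List.append_eq_append_iff.mp e with ⟨W, e1, e2⟩ | ⟨W, e1, e2⟩
          · -- s' = s ++ W, i = W ++ c'
            by_cases hW : W = []
            · subst hW
              rw [List.append_nil] at e1
              rw [List.nil_append] at e2
              subst e1 e2
              omega
            · exact absurd (hi.2 W c' e2 hW) hc'
          · -- s = s' ++ W, c' = W ++ i
            subst e1 e2
            rw [nc_app] at hs'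
            omega
    rw [this]
    exact ih.union ((Nn_sh h1 h2 h hc0 n).cat hI)

theorem nc_nil (v : List α) : nc w v [] = 0 ∨
    ∃ s c, v = s ++ c ∧ w c ≠ 0 ∧ nc w v [] = nc w s c + 1 := by
  induction v with
  | nil => exact Or.inl rfl
  | cons b S ih =>
    rcases ih with h1 | ⟨s, c, e, hc, h1⟩
    · by_cases hb : w (b :: S) = 0
      · left
        rw [nc, h1, if_neg (by simpa using hb)]
      · right
        refine ⟨[], b :: S, rfl, hb, ?_⟩
        change nc w S [] + (if w (b :: S ++ []) ≠ 0 then 1 else 0) = 0 + 1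
        rw [h1, if_pos (by simpa using hb)]
    · right
      refine ⟨b :: s, c, by rw [e]; rfl, hc, ?_⟩
      rw [nc, nc, h1, List.append_nil, e]
      simp only [List.cons_append]
      omega

theorem Fw_le {n : ℕ} {v : List α} (hv : v ∈ Fw w n) : nc w v [] ≤ n := by
  rcases nc_nil (w := w) v with h | ⟨s, c, e, hc, h⟩
  · omega
  · have := hv s c e hc
    omega

theorem exact_n (h : Rt w w) (hc0 : w c0 ≠ 0) (n : ℕ) : ∀ (k : ℕ) (s c : List α), w c ≠ 0 →
    nc w s c = n + k → ∃ s' c', s ++ c = s' ++ c' ∧ w c' ≠ 0 ∧ nc w s' c' = n := by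
  intro k
  induction k with
  | zero => intro s c hc hn; exact ⟨s, c, rfl, hc, hn⟩
  | succ k ih =>
    intro s c hc hn
    rw [nc_rt h hc hc0, ← Nat.add_assoc] at hn
    obtain ⟨A, d, hd, rfl, hA⟩ := nc_split h hc0 hn
    have h1 := D_cut h hc0 hd hc
    obtain ⟨s', c', e, hc', hn'⟩ := ih A (d ++ c) h1 (by rw [nc_rt h h1 hc0]; exact hA)
    exact ⟨s', c', by rw [List.append_assoc]; exact e, hc', hn'⟩

end Cuts

/-- **Row (A)**: level sets of local functions have height at most one -/
theorem level [Finite α] (h1 : FS w) (h2 : AP w w) (h : Rt w w) (hF : FS G) (hA : AP w G)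
    {n : ℕ} (hM : Mem w n G) (a : ZMod p) : SH 1 {v | G v = a} := by
  by_cases hcut : ∃ c, w c ≠ 0
  · obtain ⟨c0, hc0⟩ := hcut
    have e : {v | G v = a} = {v | v ∈ Fw w n ∧ G (v ++ []) = a} ∪
        cat {s | s ∈ Nn w c0 n ∧ G (s ++ c0) = a} {c | w c ≠ 0} := by
      ext v
      constructor
      · intro ha
        by_cases hv : v ∈ Fw w n
        · exact Or.inl ⟨hv, by rw [List.append_nil]; exact ha⟩
        · right
          have : ∃ s c, v = s ++ c ∧ w c ≠ 0 ∧ n ≤ nc w s c := by
            by_contra hne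
            apply hv
            intro s c e hc
            by_contra hlt
            exact hne ⟨s, c, e, hc, by omega⟩
          obtain ⟨s, c, rfl, hc, hn⟩ := this
          obtain ⟨s', c', e', hc', hn'⟩ := exact_n h hc0 n (nc w s c - n) s c hc (by omega)
          refine ⟨s', ⟨?_, ?_⟩, c', hc', e'.symm⟩
          · change nc w s' c0 = n
            rw [← nc_rt h hc' hc0]; exact hn'
          · rw [← hM s' c' c0 hc' hc0 (by omega), ← e']
            exact ha
      · rintro (⟨-, ha⟩ | ⟨s, ⟨hs, ha⟩, c, hc, rfl⟩)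
        · rw [List.append_nil] at ha
          exact ha
        · have hs' : nc w s c0 = n := hs
          change G (s ++ c) = a
          rw [hM s c c0 hc hc0 (by rw [nc_rt h hc hc0]; omega)]
          exact ha
    rw [e]
    refine (window hF hA (Fw_sh h1 h2 h hc0 n) [] (fun s hs => Fw_le hs) a).of_zero.union ?_
    exact (window hF hA (Nn_sh h1 h2 h hc0 n) c0 (k := n)
      (fun s hs => le_of_eq hs) a).of_zero.cat (cut_sh h1 h2 h hc0)
  · have h0 : ∀ s c, nc w s c = 0 := by
      intro s c
      induction s with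
      | nil => rfl
      | cons b S ih =>
        rw [nc, ih, if_neg]
        intro h3
        exact hcut ⟨_, h3⟩
    have e : {v | G v = a} = {v | v ∈ (Set.univ : Set (List α)) ∧ G (v ++ []) = a} := by
      ext v
      exact ⟨fun h => ⟨trivial, by rw [List.append_nil]; exact h⟩,
        fun h => by have := h.2; rwa [List.append_nil] at this⟩
    rw [e]
    exact (window hF hA SH.univ [] (k := 0) (fun s _ => le_of_eq (h0 s [])) a).of_zero

/-- the same for the time-ordered word -/
theorem level_rev [Finite α] (h1 : FS w) (h2 : AP w w) (h : Rt w w) (hF : FS G) (hA : AP w G)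
    {n : ℕ} (hM : Mem w n G) (a : ZMod p) : SH 1 {u : List α | G u.reverse = a} :=
  SH.rev (level h1 h2 h hF hA hM a)

theorem unc_conv {V X : List α} : H962.Unc w V X ↔ Unc w V X := by
  constructor
  · intro h A B e hB
    exact h B ⟨A, e.symm⟩ hB
  · rintro h B ⟨A, e⟩ hB
    exact h A B e.symm hB

theorem nc_conv (S c : List α) : H962.nc w S c = nc w S c := by
  induction S with
  | nil => rfl
  | cons b S ih =>
    rw [H962.nc, nc, ih, List.cons_append]
    by_cases h : w (b :: (S ++ c)) = 0
    · rw [if_pos h, if_neg (not_not.mpr h)]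
    · rw [if_neg h, if_pos h]

theorem ap_conv (h : H962.AP w G) : AP w G := by
  intro v
  obtain ⟨N, hN⟩ := h v
  refine ⟨N, fun n hn X Y hu => ?_⟩
  rw [List.append_assoc, List.append_assoc]
  exact hN n hn X Y (unc_conv.mpr hu)

theorem rowA : H962.RowA := by
  intro α _ p _ w hw G hG a
  obtain ⟨hF, hA, n, hM⟩ := hG
  refine level_rev (w := w) (G := G) hw.fs (ap_conv hw.ap) (fun r c c' h1 h2 h3 =>
    hw.rt c c' r h1 h2 h3) hF (ap_conv hA) (n := n) (fun S c c' h1 h2 h3 => ?_) a
  exact hM c c' S h1 h2 (by rw [nc_conv]; exact h3)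

end Vale.Agent.P329.H62.A
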