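import Vale.Agent.P329.H62.Rev

/-!
# P329 : functions which are local over a code, words newest letter first
-/

set_option linter.all false

namespace Vale.Agent.P329.H62

open Vale.Agent.P329 Vale.Agent.P329.H157

variable {α : Type} {p : ℕ}

/-- products of `n` words of `D` (newest first) -/
def Dn (D : Set (List α)) : ℕ → Set (List α)
  | 0 => {[]}
  | n + 1 => cat (Dn D n) D

/-- tails: words without a `D`-word at the old end -/
def Vt (D : Set (List α)) : Set (List α) := {v | ∀ t d, v = t ++ d → d ∉ D}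

/-- words `v ++ x` with a tail `v` and `x` a product of `n` words of `D` -/
def VD (D : Set (List α)) (n : ℕ) : Set (List α) := cat (Vt D) (Dn D n)

/-- prefix codes in time order, newest letter first -/
structure PD (D : Set (List α)) : Prop where
  ne : [] ∉ D
  pre : ∀ t t' d d', t ++ d = t' ++ d' → d ∈ D → d' ∈ D → d = d'

section D

variable {D : Set (List α)}

theorem Dn_add (m n : ℕ) : Dn D (m + n) = cat (Dn D m) (Dn D n) := by
  induction n with
  | zero => exact (cat_nil _).symm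
  | succ n ih => rw [Nat.add_succ, Dn, ih, Dn, cat_assoc]

theorem Dn_one : Dn D 1 = D := nil_cat D

theorem Dn_app {m n : ℕ} {x y : List α} (hx : x ∈ Dn D m) (hy : y ∈ Dn D n) :
    x ++ y ∈ Dn D (m + n) := by
  rw [Dn_add]; exact ⟨x, hx, y, hy, rfl⟩

theorem Dn_sh {k : ℕ} (h : SH k D) (n : ℕ) : SH k (Dn D n) := by
  induction n with
  | zero => exact SH.eps
  | succ n ih => exact ih.cat h

theorem Vt_sh {k : ℕ} (h : SH k D) : SH k (Vt D) := by
  have h1 : Vt D = (cat Set.univ D)ᶜ := by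
    ext v
    constructor
    · rintro hv ⟨t, -, d, hd, rfl⟩
      exact hv t d rfl hd
    · intro hv t d e hd
      exact hv ⟨t, trivial, d, hd, e.symm⟩
  rw [h1]
  exact (SH.univ.cat h).compl

theorem VD_sh {k : ℕ} (h : SH k D) (n : ℕ) : SH k (VD D n) := (Vt_sh h).cat (Dn_sh h n)

theorem mem_kst_iff {x : List α} : x ∈ kst D ↔ ∃ n, x ∈ Dn D n := by
  constructor
  · rintro ⟨L, hL, rfl⟩
    induction L with
    | nil => exact ⟨0, rfl⟩
    | cons d L ih =>
      obtain ⟨n, hn⟩ := ih fun y hy => hL y (List.mem_cons_of_mem _ hy)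
      refine ⟨1 + n, ?_⟩
      rw [List.flatten_cons]
      exact Dn_app (by rw [Dn_one]; exact hL d List.mem_cons_self) hn
  · rintro ⟨n, hn⟩
    induction n generalizing x with
    | zero =>
      have : x = [] := hn
      subst this
      exact H259.kst_nil _
    | succ n ih =>
      obtain ⟨y, hy, d, hd, rfl⟩ := hn
      exact H259.kst_append (ih hy) (H259.kst_of_mem hd)

/-- comparison of two parses of the same word from the old end -/
theorem PD.cmp (h : PD D) : ∀ {m : ℕ} {k : ℕ} {t t' x x' : List α}, x ∈ Dn D m →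
    x' ∈ Dn D (k + m) → t ++ x = t' ++ x' → ∃ y ∈ Dn D k, x' = y ++ x ∧ t = t' ++ y := by
  intro m
  induction m with
  | zero =>
    intro k t t' x x' hx hx' e
    have : x = [] := hx
    subst this
    exact ⟨x', hx', by simp, by simpa using e⟩
  | succ m ih =>
    intro k t t' x x' hx hx' e
    obtain ⟨y1, hy1, d, hd, rfl⟩ := hx
    obtain ⟨y2, hy2, d', hd', rfl⟩ := hx'
    have e1 : (t ++ y1) ++ d = (t' ++ y2) ++ d' := by simpa [List.append_assoc] using e
    have hdd := h.pre _ _ _ _ e1 hd hd'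
    subst hdd
    have e2 := List.append_cancel_right e1
    obtain ⟨y, hy, e3, e4⟩ := ih hy1 hy2 e2
    exact ⟨y, hy, by rw [e3, List.append_assoc], e4⟩

theorem Vt_no {v t y : List α} {k : ℕ} (hv : v ∈ Vt D) (e : v = t ++ y) (hy : y ∈ Dn D k) :
    k = 0 := by
  cases k with
  | zero => rfl
  | succ k =>
    obtain ⟨z, hz, d, hd, rfl⟩ := hy
    exact absurd hd (hv (t ++ z) d (by rw [e, List.append_assoc]))

/-- uniqueness of the parse `v ++ x` -/
theorem PD.uniq (h : PD D) {m n : ℕ} {v v' x x' : List α} (hv : v ∈ Vt D) (hv' : v' ∈ Vt D)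
    (hx : x ∈ Dn D m) (hx' : x' ∈ Dn D n) (e : v ++ x = v' ++ x') : m = n ∧ v = v' ∧ x = x' := by
  rcases Nat.le_total m n with hmn | hmn
  · obtain ⟨k, rfl⟩ : ∃ k, n = k + m := ⟨n - m, by omega⟩
    obtain ⟨y, hy, e1, e2⟩ := h.cmp hx hx' e
    have h0 := Vt_no hv e2 hy
    subst h0
    have : y = [] := hy
    subst this
    exact ⟨by omega, by simpa using e2, by simpa using e1.symm⟩
  · obtain ⟨k, rfl⟩ : ∃ k, m = k + n := ⟨m - n, by omega⟩
    obtain ⟨y, hy, e1, e2⟩ := h.cmp hx' hx e.symm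
    have h0 := Vt_no hv' e2 hy
    subst h0
    have : y = [] := hy
    subst this
    exact ⟨by omega, by simpa using e2.symm, by simpa using e1⟩

/-- existence of the parse -/
theorem PD.parse (h : PD D) : ∀ (n : ℕ) (s : List α), s.length ≤ n → ∃ m, s ∈ VD D m := by
  intro n
  induction n with
  | zero =>
    intro s hs
    have : s = [] := List.length_eq_zero_iff.mp (by omega)
    subst this
    refine ⟨0, [], ?_, [], rfl, rfl⟩
    intro t d e hd
    have : d = [] := (List.append_eq_nil_iff.mp e.symm).2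
    subst this
    exact h.ne hd
  | succ n ih =>
    intro s hs
    by_cases hv : s ∈ Vt D
    · exact ⟨0, s, hv, [], rfl, by simp⟩
    · have : ∃ t d, s = t ++ d ∧ d ∈ D := by
        by_contra hne
        apply hv
        intro t d e hd
        exact hne ⟨t, d, e, hd⟩
      obtain ⟨t, d, rfl, hd⟩ := this
      have hd0 : d ≠ [] := by rintro rfl; exact h.ne hd
      have hdl : 0 < d.length := List.length_pos_iff.mpr hd0
      rw [List.length_append] at hs
      obtain ⟨m, v, hv2, x, hx, rfl⟩ := ih t (by omega)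
      exact ⟨m + 1, v, hv2, x ++ d, ⟨x, hx, d, hd, rfl⟩, by simp⟩

theorem VD_app {m n : ℕ} {s y : List α} (hs : s ∈ VD D m) (hy : y ∈ Dn D n) :
    s ++ y ∈ VD D (m + n) := by
  obtain ⟨v, hv, x, hx, rfl⟩ := hs
  exact ⟨v, hv, x ++ y, Dn_app hx hy, by simp⟩

theorem VD_split {m n : ℕ} {s : List α} (hs : s ∈ VD D (m + n)) :
    ∃ s' ∈ VD D m, ∃ y ∈ Dn D n, s = s' ++ y := by
  obtain ⟨v, hv, x, hx, rfl⟩ := hs
  rw [Dn_add] at hx
  obtain ⟨x1, hx1, y, hy, rfl⟩ := hx
  exact ⟨v ++ x1, ⟨v, hv, x1, hx1, rfl⟩, y, hy, by simp⟩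

theorem PD.VD_uniq (h : PD D) {m n : ℕ} {s : List α} (h1 : s ∈ VD D m) (h2 : s ∈ VD D n) :
    m = n := by
  obtain ⟨v, hv, x, hx, rfl⟩ := h1
  obtain ⟨v', hv', x', hx', e⟩ := h2
  exact (h.uniq hv hv' hx hx' e.symm).1

end D

/-- code data -/
structure Code (α : Type) where
  /-- initial words -/
  I : Set (List α)
  /-- the code -/
  D : Set (List α)

structure Code.Ok (cd : Code α) : Prop where
  sI : SH 0 cd.I
  sD : SH 0 cd.D
  pI : PD cd.I
  pD : PD cd.D

/-- the cuts -/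
def Code.Cut (cd : Code α) : Set (List α) := cat (kst cd.D) cd.I

/-- at most `n` cuts -/
def Code.Few (cd : Code α) (n : ℕ) : Set (List α) :=
  {v | ∀ m s i, i ∈ cd.I → s ∈ VD cd.D m → v = s ++ i → m < n}

theorem Code.cut_app {cd : Code α} {n : ℕ} {y c : List α} (hy : y ∈ Dn cd.D n) (hc : c ∈ cd.Cut) :
    y ++ c ∈ cd.Cut := by
  obtain ⟨x, hx, i, hi, rfl⟩ := hc
  exact ⟨y ++ x, H259.kst_append (mem_kst_iff.mpr ⟨n, hy⟩) hx, i, hi, by simp⟩

theorem Code.cut_init {cd : Code α} {i : List α} (hi : i ∈ cd.I) : i ∈ cd.Cut :=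
  ⟨[], H259.kst_nil _, i, hi, rfl⟩

namespace Code

variable {cd : Code α}

theorem few_or (h : cd.Ok) (n : ℕ) (v : List α) :
    v ∈ cd.Few n ∨ ∃ s ∈ VD cd.D n, ∃ c ∈ cd.Cut, v = s ++ c := by
  by_cases hv : v ∈ cd.Few n
  · exact Or.inl hv
  · right
    have : ∃ m s i, i ∈ cd.I ∧ s ∈ VD cd.D m ∧ v = s ++ i ∧ n ≤ m := by
      by_contra hne
      apply hv
      intro m s i hi hs e
      by_contra hlt
      exact hne ⟨m, s, i, hi, hs, e, by omega⟩
    obtain ⟨m, s, i, hi, hs, rfl, hnm⟩ := this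
    obtain ⟨k, rfl⟩ : ∃ k, m = n + k := ⟨m - n, by omega⟩
    obtain ⟨s', hs', y, hy, rfl⟩ := VD_split hs
    exact ⟨s', hs', y ++ i, cut_app hy (cut_init hi), by simp⟩

/-- uniqueness of `v = s ++ c` -/
theorem cut_uniq (h : cd.Ok) {n : ℕ} {s s' c c' : List α} (hs : s ∈ VD cd.D n)
    (hs' : s' ∈ VD cd.D n) (hc : c ∈ cd.Cut) (hc' : c' ∈ cd.Cut) (e : s ++ c = s' ++ c') :
    s = s' ∧ c = c' := by
  obtain ⟨y, hy, i, hi, rfl⟩ := hc
  obtain ⟨y', hy', i', hi', rfl⟩ := hc'
  obtain ⟨k, hy⟩ := mem_kst_iff.mp hy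
  obtain ⟨k', hy'⟩ := mem_kst_iff.mp hy'
  have e1 : (s ++ y) ++ i = (s' ++ y') ++ i' := by simpa [List.append_assoc] using e
  have hii := h.pI.pre _ _ _ _ e1 hi hi'
  subst hii
  have e2 := List.append_cancel_right e1
  obtain ⟨v, hv, x, hx, rfl⟩ := hs
  obtain ⟨v', hv', x', hx', rfl⟩ := hs'
  have e3 : v ++ (x ++ y) = v' ++ (x' ++ y') := by simpa [List.append_assoc] using e2
  obtain ⟨h1, h2, h3⟩ := h.pD.uniq hv hv' (Dn_app hx hy) (Dn_app hx' hy') e3
  subst h2
  have h4 : k = k' := by omega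
  subst h4
  obtain ⟨z, hz, h5, h6⟩ := h.pD.cmp (k := 0) hy (by rw [Nat.zero_add]; exact hy') h3
  have : z = [] := hz
  subst this
  have h7 : y' = y := by simpa using h5
  subst h7
  exact ⟨by rw [List.append_cancel_right h3], rfl⟩

theorem not_few (h : cd.Ok) {n : ℕ} {s c : List α} (hs : s ∈ VD cd.D n) (hc : c ∈ cd.Cut) :
    s ++ c ∉ cd.Few n := by
  intro hf
  obtain ⟨y, hy, i, hi, rfl⟩ := hc
  obtain ⟨k, hy⟩ := mem_kst_iff.mp hy
  have := hf (n + k) (s ++ y) i hi (VD_app hs hy) (by simp)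
  omega

theorem few_succ (h : cd.Ok) {n : ℕ} {v : List α} : v ∈ cd.Few (n + 1) ↔
    v ∈ cd.Few n ∨ ∃ s ∈ VD cd.D n, ∃ i ∈ cd.I, v = s ++ i := by
  constructor
  · intro hv
    by_cases hv' : v ∈ cd.Few n
    · exact Or.inl hv'
    · right
      have : ∃ m s i, i ∈ cd.I ∧ s ∈ VD cd.D m ∧ v = s ++ i ∧ n ≤ m := by
        by_contra hne
        apply hv'
        intro m s i hi hs e
        by_contra hlt
        exact hne ⟨m, s, i, hi, hs, e, by omega⟩
      obtain ⟨m, s, i, hi, hs, rfl, hnm⟩ := this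
      have h1 := hv m s i hi hs rfl
      have : m = n := by omega
      subst this
      exact ⟨s, hs, i, hi, rfl⟩
  · rintro (hv | ⟨s, hs, i, hi, rfl⟩)
    · intro m s i hi hs e
      have := hv m s i hi hs e
      omega
    · intro m s' i' hi' hs' e
      have hii := h.pI.pre _ _ _ _ e hi hi'
      subst hii
      have e2 := List.append_cancel_right e
      subst e2
      have := h.pD.VD_uniq hs hs'
      omega

theorem few_sh (h : cd.Ok) (n : ℕ) : SH 0 (cd.Few n) := by
  induction n with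
  | zero =>
    have : cd.Few 0 = (cat Set.univ cd.I)ᶜ := by
      ext v
      constructor
      · rintro hv ⟨t, -, i, hi, rfl⟩
        obtain ⟨m, hm⟩ := h.pD.parse t.length t le_rfl
        exact absurd (hv m t i hi hm rfl) (Nat.not_lt_zero _)
      · intro hv m s i hi hs e
        exact absurd ⟨s, trivial, i, hi, e.symm⟩ hv
    rw [this]
    exact (SH.univ.cat h.sI).compl
  | succ n ih =>
    have : cd.Few (n + 1) = cd.Few n ∪ cat (VD cd.D n) cd.I := by
      ext v
      rw [few_succ h]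
      constructor
      · rintro (hv | ⟨s, hs, i, hi, rfl⟩)
        · exact Or.inl hv
        · exact Or.inr ⟨s, hs, i, hi, rfl⟩
      · rintro (hv | ⟨s, hs, i, hi, rfl⟩)
        · exact Or.inl hv
        · exact Or.inr ⟨s, hs, i, hi, rfl⟩
    rw [this]
    exact ih.union ((VD_sh h.sD n).cat h.sI)

end Code

/-- `G` is local of order `n` over the code -/
structure Ln (cd : Code α) (n : ℕ) (G : List α → ZMod p) : Prop where
  ind : ∀ c ∈ cd.Cut, ∀ c' ∈ cd.Cut, ∀ s ∈ VD cd.D n, G (s ++ c) = G (s ++ c')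
  sf : ∀ c ∈ cd.Cut, ∀ a, SH 0 {s | s ∈ VD cd.D n ∧ G (s ++ c) = a}
  few : ∀ a, SH 0 {v | v ∈ cd.Few n ∧ G v = a}

/-- local functions -/
def Lc (cd : Code α) (G : List α → ZMod p) : Prop := ∃ n, Ln cd n G

variable {cd : Code α} {n : ℕ} {G G' : List α → ZMod p}

theorem Ln.succ (h : cd.Ok) (hG : Ln cd n G) : Ln cd (n + 1) G where
  ind := by
    intro c hc c' hc' s hs
    obtain ⟨s', hs', y, hy, rfl⟩ := VD_split hs
    rw [List.append_assoc, List.append_assoc]
    exact hG.ind _ (Code.cut_app hy hc) _ (Code.cut_app hy hc') _ hs'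
  sf := by
    intro c hc a
    have : {s | s ∈ VD cd.D (n + 1) ∧ G (s ++ c) = a} =
        cat {s | s ∈ VD cd.D n ∧ G (s ++ c) = a} (Dn cd.D 1) := by
      ext s
      constructor
      · rintro ⟨hs, ha⟩
        obtain ⟨s', hs', y, hy, rfl⟩ := VD_split hs
        refine ⟨s', ⟨hs', ?_⟩, y, hy, rfl⟩
        rw [hG.ind c hc _ (Code.cut_app hy hc) _ hs', ← List.append_assoc]
        exact ha
      · rintro ⟨s', ⟨hs', ha⟩, y, hy, rfl⟩
        refine ⟨VD_app hs' hy, ?_⟩
        rw [List.append_assoc, ← hG.ind c hc _ (Code.cut_app hy hc) _ hs']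
        exact ha
    rw [this]
    exact (hG.sf c hc a).cat (Dn_sh h.sD 1)
  few := by
    intro a
    by_cases hI : ∃ i, i ∈ cd.I
    · obtain ⟨i0, hi0⟩ := hI
      have : {v | v ∈ cd.Few (n + 1) ∧ G v = a} = {v | v ∈ cd.Few n ∧ G v = a} ∪
          cat {s | s ∈ VD cd.D n ∧ G (s ++ i0) = a} cd.I := by
        ext v
        constructor
        · rintro ⟨hv, ha⟩
          rcases (Code.few_succ h).mp hv with hv | ⟨s, hs, i, hi, rfl⟩
          · exact Or.inl ⟨hv, ha⟩
          · refine Or.inr ⟨s, ⟨hs, ?_⟩, i, hi, rfl⟩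
            rw [← hG.ind _ (Code.cut_init hi) _ (Code.cut_init hi0) _ hs]
            exact ha
        · rintro (⟨hv, ha⟩ | ⟨s, ⟨hs, ha⟩, i, hi, rfl⟩)
          · exact ⟨(Code.few_succ h).mpr (Or.inl hv), ha⟩
          · refine ⟨(Code.few_succ h).mpr (Or.inr ⟨s, hs, i, hi, rfl⟩), ?_⟩
            rw [hG.ind _ (Code.cut_init hi) _ (Code.cut_init hi0) _ hs]
            exact ha
      rw [this]
      exact (hG.few a).union ((hG.sf _ (Code.cut_init hi0) a).cat h.sI)
    · have : {v | v ∈ cd.Few (n + 1) ∧ G v = a} = {v | v ∈ cd.Few n ∧ G v = a} := by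
        ext v
        constructor
        · rintro ⟨hv, ha⟩
          rcases (Code.few_succ h).mp hv with hv | ⟨s, hs, i, hi, rfl⟩
          · exact ⟨hv, ha⟩
          · exact absurd ⟨i, hi⟩ hI
        · rintro ⟨hv, ha⟩
          exact ⟨(Code.few_succ h).mpr (Or.inl hv), ha⟩
      rw [this]
      exact hG.few a

theorem Ln.mono (h : cd.Ok) (hG : Ln cd n G) {m : ℕ} (hm : n ≤ m) : Ln cd m G := by
  induction m with
  | zero =>
    have : n = 0 := by omega
    subst this; exact hG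
  | succ m ih =>
    rcases Nat.lt_or_ge n (m + 1) with h1 | h1
    · exact (ih (by omega)).succ h
    · have : n = m + 1 := by omega
      subst this; exact hG

/-- pointwise operations -/
theorem Ln.op [NeZero p] (hG : Ln cd n G) (hG' : Ln cd n G') (f : ZMod p → ZMod p → ZMod p) :
    Ln cd n fun v => f (G v) (G' v) where
  ind := by
    intro c hc c' hc' s hs
    change f _ _ = f _ _
    rw [hG.ind c hc c' hc' s hs, hG'.ind c hc c' hc' s hs]
  sf := by
    intro c hc a
    have : {s | s ∈ VD cd.D n ∧ f (G (s ++ c)) (G' (s ++ c)) = a} =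
        ⋃ b : ZMod p, ⋃ b' : ZMod p, ⋃ _ : f b b' = a,
          {s | s ∈ VD cd.D n ∧ G (s ++ c) = b} ∩ {s | s ∈ VD cd.D n ∧ G' (s ++ c) = b'} := by
      ext s
      simp only [Set.mem_iUnion]
      constructor
      · rintro ⟨hs, ha⟩
        exact ⟨_, _, ha, ⟨hs, rfl⟩, ⟨hs, rfl⟩⟩
      · rintro ⟨b, b', hb, ⟨hs, h1⟩, ⟨-, h2⟩⟩
        exact ⟨hs, by rw [h1, h2]; exact hb⟩
    rw [this]
    exact SH.iUnion fun b => SH.iUnion fun b' => SH.iUnion_prop fun _ =>
      (hG.sf c hc b).inter (hG'.sf c hc b')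
  few := by
    intro a
    have : {v | v ∈ cd.Few n ∧ f (G v) (G' v) = a} =
        ⋃ b : ZMod p, ⋃ b' : ZMod p, ⋃ _ : f b b' = a,
          {v | v ∈ cd.Few n ∧ G v = b} ∩ {v | v ∈ cd.Few n ∧ G' v = b'} := by
      ext s
      simp only [Set.mem_iUnion]
      constructor
      · rintro ⟨hs, ha⟩
        exact ⟨_, _, ha, ⟨hs, rfl⟩, ⟨hs, rfl⟩⟩
      · rintro ⟨b, b', hb, ⟨hs, h1⟩, ⟨-, h2⟩⟩
        exact ⟨hs, by rw [h1, h2]; exact hb⟩
    rw [this]
    exact SH.iUnion fun b => SH.iUnion fun b' => SH.iUnion_prop fun _ =>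
      (hG.few b).inter (hG'.few b')

theorem Ln.const (h : cd.Ok) (n : ℕ) (b : ZMod p) : Ln cd n fun _ => b where
  ind := fun _ _ _ _ _ _ => rfl
  sf := by
    intro c hc a
    by_cases hab : b = a
    · have : {s | s ∈ VD cd.D n ∧ b = a} = VD cd.D n := by
        ext s; exact ⟨fun h => h.1, fun h => ⟨h, hab⟩⟩
      rw [this]; exact VD_sh h.sD n
    · have : {s | s ∈ VD cd.D n ∧ b = a} = ∅ := by
        ext s; exact ⟨fun h => absurd h.2 hab, fun h => h.elim⟩
      rw [this]; exact SH.empty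
  few := by
    intro a
    by_cases hab : b = a
    · have : {s | s ∈ cd.Few n ∧ b = a} = cd.Few n := by
        ext s; exact ⟨fun h => h.1, fun h => ⟨h, hab⟩⟩
      rw [this]; exact Code.few_sh h n
    · have : {s | s ∈ cd.Few n ∧ b = a} = ∅ := by
        ext s; exact ⟨fun h => absurd h.2 hab, fun h => h.elim⟩
      rw [this]; exact SH.empty

theorem Lc.op [NeZero p] (h : cd.Ok) (hG : Lc cd G) (hG' : Lc cd G')
    (f : ZMod p → ZMod p → ZMod p) : Lc cd fun v => f (G v) (G' v) := by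
  obtain ⟨n, hn⟩ := hG
  obtain ⟨n', hn'⟩ := hG'
  exact ⟨max n n', (hn.mono h (le_max_left _ _)).op (hn'.mono h (le_max_right _ _)) f⟩

theorem Lc.add [NeZero p] (h : cd.Ok) (hG : Lc cd G) (hG' : Lc cd G') :
    Lc cd fun v => G v + G' v := hG.op h hG' fun a b => a + b

theorem Lc.mul [NeZero p] (h : cd.Ok) (hG : Lc cd G) (hG' : Lc cd G') :
    Lc cd fun v => G v * G' v := hG.op h hG' fun a b => a * b

theorem Lc.comp [NeZero p] (h : cd.Ok) (hG : Lc cd G) (f : ZMod p → ZMod p) :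
    Lc cd fun v => f (G v) := hG.op h hG fun a _ => f a

theorem Lc.const (h : cd.Ok) (b : ZMod p) : Lc cd fun _ => b := ⟨0, Ln.const h 0 b⟩

theorem Lc.sum [NeZero p] (h : cd.Ok) {ι : Type*} (S : Finset ι) (Gs : ι → List α → ZMod p)
    (hG : ∀ i ∈ S, Lc cd (Gs i)) : Lc cd fun v => ∑ i ∈ S, Gs i v := by
  classical
  induction S using Finset.induction_on with
  | empty => simpa using Lc.const (p := p) h 0
  | insert a S ha ih =>
    have h1 := (hG a (Finset.mem_insert_self _ _)).add h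
      (ih fun i hi => hG i (Finset.mem_insert_of_mem hi))
    have h2 : (fun v => ∑ i ∈ insert a S, Gs i v) = fun v => Gs a v + ∑ i ∈ S, Gs i v := by
      funext v
      rw [Finset.sum_insert ha]
    rw [h2]
    exact h1

/-- level sets of local functions have height at most one -/
theorem Lc.sh (h : cd.Ok) (hG : Lc cd G) (a : ZMod p) : SH 1 {v | G v = a} := by
  obtain ⟨n, hn⟩ := hG
  by_cases hI : ∃ i, i ∈ cd.I
  · obtain ⟨i0, hi0⟩ := hI
    have hc0 : i0 ∈ cd.Cut := Code.cut_init hi0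
    have : {v | G v = a} = {v | v ∈ cd.Few n ∧ G v = a} ∪
        cat {s | s ∈ VD cd.D n ∧ G (s ++ i0) = a} cd.Cut := by
      ext v
      constructor
      · intro ha
        rcases Code.few_or h n v with hv | ⟨s, hs, c, hc, rfl⟩
        · exact Or.inl ⟨hv, ha⟩
        · refine Or.inr ⟨s, ⟨hs, ?_⟩, c, hc, rfl⟩
          rw [hn.ind _ hc0 _ hc _ hs]
          exact ha
      · rintro (⟨-, ha⟩ | ⟨s, ⟨hs, ha⟩, c, hc, rfl⟩)
        · exact ha
        · change G (s ++ c) = a
          rw [hn.ind _ hc _ hc0 _ hs]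
          exact ha
    rw [this]
    exact (hn.few a).of_zero.union (((hn.sf _ hc0 a).of_zero).cat
      ((h.sD.kst).cat h.sI.of_zero))
  · have : {v | G v = a} = {v | v ∈ cd.Few n ∧ G v = a} := by
      ext v
      constructor
      · intro ha
        rcases Code.few_or h n v with hv | ⟨s, hs, c, ⟨x, hx, i, hi, rfl⟩, rfl⟩
        · exact ⟨hv, ha⟩
        · exact absurd ⟨i, hi⟩ hI
      · exact fun h => h.2
    rw [this]
    exact (hn.few a).of_zero

end Vale.Agent.P329.H62
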