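import Vale.Agent.P329.H157.Sub
import Mathlib.Data.ZMod.Basic

/-!
# P329 : path languages of a walk over a labelled prefix code are star-free

`D : B → Set (List α)` is a labelled prefix code, `h : B → ZMod p` a step function with the charge
condition `CH`. The words whose walk from `s` stays in a proper set `C` of states and ends in `t`
form a star-free language.
-/

set_option linter.all false

namespace Vale.Agent.P329.H62

open Vale.Agent.P329 Vale.Agent.P329.H157
open Vale.Agent.P329.H259 (pw pw_zero pw_succ pw_one pw_add pw_succ' pw_mul pw_length)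

variable {α B : Type} {p : ℕ} {D : B → Set (List α)} {h : B → ZMod p}

/-- the charge condition: nontrivial cycles of the code have nonzero sum -/
def CH (D : B → Set (List α)) (h : B → ZMod p) : Prop :=
  ∀ v j X, 2 ≤ j → pw v j ∈ sub D X →
    (∀ i, 1 ≤ i → i < j → pw v i ∉ subL D Set.univ) → (X.map h).sum ≠ 0

/-- histories from the state `s` to the state `t` all of whose states are in `C` -/
def Pth (h : B → ZMod p) (C : Set (ZMod p)) (s t : ZMod p) : Set (List B) :=
  {X | (∀ Z Y, X = Z ++ Y → s + (Y.map h).sum ∈ C) ∧ s + (X.map h).sum = t}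

theorem sum_app (X Y : List B) : ((X ++ Y).map h).sum = (X.map h).sum + (Y.map h).sum := by
  rw [List.map_append, List.sum_append]

theorem sum_cons (b : B) (Y : List B) : ((b :: Y).map h).sum = h b + (Y.map h).sum := by
  rw [List.map_cons, List.sum_cons]

theorem Pth.start {C : Set (ZMod p)} {s t : ZMod p} {X : List B} (hX : X ∈ Pth h C s t) :
    s ∈ C := by
  have := hX.1 X [] (by simp)
  simpa using this

theorem Pth.stop {C : Set (ZMod p)} {s t : ZMod p} {X : List B} (hX : X ∈ Pth h C s t) :
    t ∈ C := by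
  rw [← hX.2]; exact hX.1 [] X rfl

theorem Pth.nil {C : Set (ZMod p)} {s : ZMod p} (hs : s ∈ C) : [] ∈ Pth h C s s := by
  refine ⟨?_, by simp⟩
  intro Z Y hZY
  have : Y = [] := (List.append_eq_nil_iff.mp hZY.symm).2
  subst this
  simpa using hs

theorem Pth.mono {C C' : Set (ZMod p)} (hC : C ⊆ C') {s t : ZMod p} {X : List B}
    (hX : X ∈ Pth h C s t) : X ∈ Pth h C' s t :=
  ⟨fun Z Y e => hC (hX.1 Z Y e), hX.2⟩

theorem Pth.comp {C : Set (ZMod p)} {s r t : ZMod p} {Z Y : List B} (hY : Y ∈ Pth h C s r)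
    (hZ : Z ∈ Pth h C r t) : Z ++ Y ∈ Pth h C s t := by
  constructor
  · intro Z' Y' e
    rcases List.append_eq_append_iff.mp e with ⟨W, h1, h2⟩ | ⟨W, h1, h2⟩
    · -- Z' = Z ++ W, Y = W ++ Y'
      exact hY.1 W Y' h2
    · -- Z = Z' ++ W, Y' = W ++ Y
      rw [h2, sum_app]
      have h3 := hZ.1 Z' W h1
      have h4 := hY.2
      have e2 : s + ((W.map h).sum + (Y.map h).sum) = r + (W.map h).sum := by
        rw [← h4]; ring
      rw [e2]; exact h3
  · rw [sum_app, ← hZ.2, ← hY.2]; ring

theorem Pth.one {C : Set (ZMod p)} {s : ZMod p} {b : B} (hs : s ∈ C) (ht : s + h b ∈ C) :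
    [b] ∈ Pth h C s (s + h b) := by
  constructor
  · intro Z Y e
    cases Z with
    | nil =>
      rw [List.nil_append] at e
      rw [← e]; simpa using ht
    | cons z Z =>
      rw [List.cons_append, List.cons.injEq] at e
      have : Y = [] := (List.append_eq_nil_iff.mp e.2.symm).2
      subst this
      simpa using hs
  · simp

theorem Pth.tail {C : Set (ZMod p)} {s t : ZMod p} {x : B} {X : List B}
    (hX : x :: X ∈ Pth h C s t) : X ∈ Pth h C s (t - h x) := by
  constructor
  · intro Z Y e
    exact hX.1 (x :: Z) Y (by rw [e]; rfl)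
  · have := hX.2
    rw [sum_cons] at this
    rw [← this]; ring

/-- decomposition at the last visit of the starting state -/
theorem Pth.last {C : Set (ZMod p)} {s : ZMod p} : ∀ (X : List B) {t : ZMod p}, t ≠ s →
    X ∈ Pth h C s t → ∃ Z b Y, X = Z ++ b :: Y ∧ Y ∈ Pth h C s s ∧ h b ≠ 0 ∧
      Z ∈ Pth h (C \ {s}) (s + h b) t := by
  intro X
  induction X with
  | nil =>
    intro t hts hX
    exact absurd (by have := hX.2; simpa using this.symm) hts
  | cons x X ih =>
    intro t hts hX
    have h1 := Pth.tail hX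
    have h0 := Pth.stop hX
    by_cases h2 : t - h x = s
    · refine ⟨[], x, X, rfl, by rw [← h2] at h1 ⊢; exact h1, ?_, ?_⟩
      · intro h3
        rw [h3, sub_zero] at h2
        exact hts h2
      · have h3 : s + h x = t := by rw [← h2]; ring
        rw [h3]
        exact Pth.nil ⟨h0, hts⟩
    · obtain ⟨Z, b, Y, e, hY, hb, hZ⟩ := ih h2 h1
      refine ⟨x :: Z, b, Y, by rw [e]; rfl, hY, hb, ?_⟩
      have h3 : s + h b + ((x :: Z).map h).sum = t := by
        rw [sum_cons]
        have := hZ.2
        calc s + h b + (h x + (Z.map h).sum) = (s + h b + (Z.map h).sum) + h x := by ring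
          _ = t := by rw [this]; ring
      refine ⟨?_, h3⟩
      intro Z' Y' e'
      cases Z' with
      | nil =>
        rw [List.nil_append] at e'
        rw [← e', h3]
        exact ⟨h0, hts⟩
      | cons z Z' =>
        rw [List.cons_append, List.cons.injEq] at e'
        exact hZ.1 Z' Y' e'.2

theorem subL_app {L L' : Set (List B)} {u v : List α} (hu : u ∈ subL D L) (hv : v ∈ subL D L')
    {M : Set (List B)} (hM : ∀ Y ∈ L, ∀ Z ∈ L', Z ++ Y ∈ M) : u ++ v ∈ subL D M := by
  obtain ⟨Y, hY, hu⟩ := hu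
  obtain ⟨Z, hZ, hv⟩ := hv
  exact ⟨Z ++ Y, hM Y hY Z hZ, by rw [sub_append]; exact ⟨u, hu, v, hv, rfl⟩⟩

/-- first returns to `s` inside `C` -/
def Fst (D : B → Set (List α)) (h : B → ZMod p) (C : Set (ZMod p)) (s : ZMod p) :
    Set (List α) :=
  (⋃ b : B, ⋃ _ : h b = 0, D b) ∪
    ⋃ b : B, ⋃ b' : B, ⋃ _ : h b ≠ 0 ∧ h b' ≠ 0,
      cat (D b) (cat (subL D (Pth h (C \ {s}) (s + h b) (s - h b'))) (D b'))

theorem loop_eq {C : Set (ZMod p)} {s : ZMod p} (hs : s ∈ C) :
    subL D (Pth h C s s) = kst (Fst D h C s) := by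
  apply Set.Subset.antisymm
  · rintro u ⟨X, hX, hu⟩
    have key : ∀ n (X : List B), X.length ≤ n → X ∈ Pth h C s s → ∀ u ∈ sub D X,
        u ∈ kst (Fst D h C s) := by
      intro n
      induction n with
      | zero =>
        intro X hn hX u hu
        have : X = [] := List.length_eq_zero_iff.mp (by omega)
        subst this
        rw [sub, Set.mem_singleton_iff] at hu
        subst hu
        exact H259.kst_nil _
      | succ n ih =>
        intro X hn hX u hu
        cases X with
        | nil =>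
          rw [sub, Set.mem_singleton_iff] at hu
          subst hu
          exact H259.kst_nil _
        | cons b' X1 =>
          obtain ⟨u1, hu1, d', hd', rfl⟩ := hu
          have h1 := Pth.tail hX
          rw [List.length_cons] at hn
          by_cases hb' : h b' = 0
          · rw [hb', sub_zero] at h1
            refine H259.kst_append (ih X1 (by omega) h1 _ hu1) (H259.kst_of_mem (Or.inl ?_))
            simp only [Set.mem_iUnion]
            exact ⟨b', hb', hd'⟩
          · have h2 : s - h b' ≠ s := by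
              intro h3
              exact hb' (by rw [sub_eq_self] at h3; exact h3)
            obtain ⟨Z, b, Y, e, hY, hb, hZ⟩ := Pth.last X1 h2 h1
            subst e
            rw [sub_append] at hu1
            obtain ⟨uy, huy, uz, huz, rfl⟩ := hu1
            obtain ⟨uy, huy', d, hd, rfl⟩ := huy
            have hlen : Y.length ≤ n := by
              rw [List.length_append, List.length_cons] at hn
              omega
            have h3 := ih Y hlen hY _ huy'
            have e3 : uy ++ d ++ uz ++ d' = uy ++ (d ++ (uz ++ d')) := by simp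
            rw [e3]
            refine H259.kst_append h3 (H259.kst_of_mem (Or.inr ?_))
            simp only [Set.mem_iUnion]
            exact ⟨b, b', ⟨hb, hb'⟩, d, hd, uz ++ d', ⟨uz, ⟨Z, hZ, huz⟩, d', hd', rfl⟩, rfl⟩
    exact key X.length X le_rfl hX u hu
  · rintro u ⟨L, hL, rfl⟩
    induction L with
    | nil => exact ⟨[], Pth.nil hs, rfl⟩
    | cons w L ih =>
      have h1 := ih fun y hy => hL y (List.mem_cons_of_mem _ hy)
      have h2 := hL w List.mem_cons_self
      rw [List.flatten_cons]
      refine subL_app (L := Pth h C s s) (L' := Pth h C s s) ?_ h1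
        fun Y hY Z hZ => Pth.comp hY hZ
      rcases h2 with h2 | h2
      · simp only [Set.mem_iUnion] at h2
        obtain ⟨b, hb, hd⟩ := h2
        refine ⟨[b], ?_, by rw [sub_single]; exact hd⟩
        have := Pth.one (h := h) (C := C) (s := s) (b := b) hs (by rw [hb, add_zero]; exact hs)
        rwa [hb, add_zero] at this
      · simp only [Set.mem_iUnion] at h2
        obtain ⟨b, b', ⟨hb, hb'⟩, d, hd, w', ⟨z, ⟨Z, hZ, hz⟩, d', hd', rfl⟩, rfl⟩ := h2
        have hZ1 := Pth.mono (C' := C) Set.sdiff_subset hZ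
        have h3 : [b] ∈ Pth h C s (s + h b) := Pth.one hs (Pth.start hZ1)
        have h4 : Z ++ [b] ∈ Pth h C s (s - h b') := Pth.comp h3 hZ1
        have h5 : [b'] ∈ Pth h C (s - h b') (s - h b' + h b') :=
          Pth.one (Pth.stop hZ1) (by rw [sub_add_cancel]; exact hs)
        rw [sub_add_cancel] at h5
        have h6 := Pth.comp h4 h5
        refine ⟨_, h6, ?_⟩
        rw [sub_append, sub_append, sub_single, sub_single]
        exact ⟨d ++ z, ⟨d, hd, z, hz, rfl⟩, d', hd', by simp⟩

theorem path_eq {C : Set (ZMod p)} {s t : ZMod p} (hst : t ≠ s) :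
    subL D (Pth h C s t) = ⋃ b : B, ⋃ _ : h b ≠ 0,
      cat (subL D (Pth h C s s)) (cat (D b) (subL D (Pth h (C \ {s}) (s + h b) t))) := by
  ext u
  simp only [Set.mem_iUnion]
  constructor
  · rintro ⟨X, hX, hu⟩
    obtain ⟨Z, b, Y, rfl, hY, hb, hZ⟩ := Pth.last X hst hX
    rw [sub_append] at hu
    obtain ⟨uy, ⟨uy, huy, d, hd, rfl⟩, uz, huz, rfl⟩ := hu
    exact ⟨b, hb, uy, ⟨Y, hY, huy⟩, d ++ uz, ⟨d, hd, uz, ⟨Z, hZ, huz⟩, rfl⟩, by simp⟩
  · rintro ⟨b, hb, uy, ⟨Y, hY, huy⟩, _, ⟨d, hd, uz, ⟨Z, hZ, huz⟩, rfl⟩, rfl⟩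
    have hZ1 := Pth.mono (C' := C) Set.sdiff_subset hZ
    have h3 : [b] ∈ Pth h C s (s + h b) := Pth.one (Pth.start hY) (Pth.start hZ1)
    refine ⟨Z ++ ([b] ++ Y), Pth.comp (Pth.comp hY h3) hZ1, ?_⟩
    rw [sub_append, sub_append, sub_single]
    exact ⟨uy ++ d, ⟨uy, huy, d, hd, rfl⟩, uz, huz, by simp⟩

/-- loops are right unitary -/
theorem loop_RU (hD : PC D) {C : Set (ZMod p)} {s : ZMod p} {u v : List α}
    (hu : u ∈ subL D (Pth h C s s)) (huv : u ++ v ∈ subL D (Pth h C s s)) :
    v ∈ subL D (Pth h C s s) := by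
  obtain ⟨X, hX, hu⟩ := hu
  obtain ⟨X', hX', huv⟩ := huv
  obtain ⟨Y, rfl, hv⟩ := hD.quot hu huv
  refine ⟨Y, ⟨?_, ?_⟩, hv⟩
  · intro Z W e
    have h1 := hX'.1 Z (W ++ X) (by rw [e, List.append_assoc])
    rw [sum_app] at h1
    have h2 := hX.2
    have e2 : s + ((W.map h).sum + (X.map h).sum) = s + (W.map h).sum := by
      calc s + ((W.map h).sum + (X.map h).sum) = (s + (X.map h).sum) + (W.map h).sum := by ring
        _ = _ := by rw [h2]
    rwa [e2] at h1
  · have h1 := hX'.2
    rw [sum_app] at h1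
    have h2 := hX.2
    calc s + (Y.map h).sum = (s + (X.map h).sum) + (Y.map h).sum := by rw [h2]
      _ = s + ((Y.map h).sum + (X.map h).sum) := by ring
      _ = s := h1

theorem sum_pw (X : List B) (t : ℕ) : ((pw X t).map h).sum = (t : ZMod p) * (X.map h).sum := by
  induction t with
  | zero => simp
  | succ t ih => rw [pw_succ, sum_app, ih]; push_cast; ring

/-- loops which miss a state are pure -/
theorem loop_pure [Fact p.Prime] (hD : PC D) (hc : CH D h) {C : Set (ZMod p)}
    (hC : C ≠ Set.univ) {s : ZMod p} {w : List α} {n : ℕ} (hn : 1 ≤ n)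
    (hw : pw w n ∈ subL D (Pth h C s s)) : w ∈ subL D (Pth h C s s) := by
  obtain ⟨Y, hY, hw⟩ := hw
  obtain ⟨j0, X0, h1, h2, h3, h4, h5⟩ := hD.cyc hn ⟨Y, trivial, hw⟩
  obtain ⟨t, ht, rfl⟩ := h5 _ _ hw
  have ht1 : 1 ≤ t := by
    rcases Nat.eq_zero_or_pos t with rfl | h'
    · rw [Nat.mul_zero] at ht; omega
    · exact h'
  have hsuf : ∀ i ≤ t, s + ((pw X0 i).map h).sum ∈ C := by
    intro i hi
    refine hY.1 (pw X0 (t - i)) (pw X0 i) ?_
    rw [← pw_add]
    congr 1
    omega
  have hsum : ((X0.map h).sum : ZMod p) = 0 := by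
    by_contra hne
    have h6 := hY.2
    rw [sum_pw] at h6
    have h7 : (t : ZMod p) * (X0.map h).sum = 0 := by
      have : s + (t : ZMod p) * (X0.map h).sum = s + 0 := by rw [h6, add_zero]
      exact add_left_cancel this
    have h8 : (t : ZMod p) = 0 := by
      rcases mul_eq_zero.mp h7 with h | h
      · exact h
      · exact absurd h hne
    have h9 : p ∣ t := (ZMod.natCast_eq_zero_iff _ _).mp h8
    have h10 : p ≤ t := Nat.le_of_dvd (by omega) h9
    apply hC
    ext c
    refine ⟨fun _ => trivial, fun _ => ?_⟩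
    have hp : NeZero p := ⟨(Fact.out : p.Prime).ne_zero⟩
    let k : ZMod p := (c - s) / (X0.map h).sum
    have hk : (k.val : ZMod p) = k := ZMod.natCast_zmod_val k
    have h11 := hsuf k.val ((ZMod.val_lt k).le.trans h10)
    rw [sum_pw, hk] at h11
    have h12 : s + k * (X0.map h).sum = c := by
      have : k * (X0.map h).sum = c - s := by
        simp only [k]
        rw [div_mul_cancel₀ _ hne]
      rw [this]; ring
    rwa [h12] at h11
  have hj : j0 = 1 := by
    by_contra hne
    exact hc w j0 X0 (by omega) h2 h3 hsum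
  subst hj
  rw [pw_one] at h2
  refine ⟨X0, ⟨?_, by rw [hsum, add_zero]⟩, h2⟩
  intro Z W e
  refine hY.1 (pw X0 (t - 1) ++ Z) W ?_
  have h6 : pw X0 t = pw X0 (t - 1) ++ X0 := by
    have h7 := pw_add X0 (t - 1) 1
    rw [pw_one] at h7
    rw [← h7]
    congr 1
    omega
  rw [h6, List.append_assoc, ← e]

/-- **path languages are star-free** -/
theorem path_sf [Finite α] [Finite B] [Fact p.Prime] (hD : PC D) (hsf : ∀ b, SH 0 (D b))
    (hc : CH D h) : ∀ (n : ℕ) (C : Set (ZMod p)), C.ncard ≤ n → C ≠ Set.univ →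
      ∀ s t, SH 0 (subL D (Pth h C s t)) := by
  have hp : NeZero p := ⟨(Fact.out : p.Prime).ne_zero⟩
  have hemp : ∀ (C : Set (ZMod p)) (s t : ZMod p), s ∉ C → SH 0 (subL D (Pth h C s t)) := by
    intro C s t hs
    have : subL D (Pth h C s t) = ∅ := by
      rw [Set.eq_empty_iff_forall_notMem]
      rintro u ⟨X, hX, -⟩
      exact hs (Pth.start hX)
    rw [this]
    exact SH.empty
  intro n
  induction n with
  | zero =>
    intro C hn _ s t
    have : C = ∅ := by
      have h1 : C.ncard = 0 := by omega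
      rwa [Set.ncard_eq_zero (Set.toFinite C)] at h1
    subst this
    exact hemp _ _ _ (Set.notMem_empty _)
  | succ n ih =>
    intro C hn hC s t
    by_cases hs : s ∈ C
    swap
    · exact hemp _ _ _ hs
    have hcard : (C \ {s}).ncard ≤ n := by
      rw [Set.ncard_sdiff_singleton_of_mem hs]
      omega
    have hC' : C \ {s} ≠ Set.univ := by
      intro h1
      have : s ∈ C \ {s} := by rw [h1]; trivial
      exact this.2 rfl
    have hih := ih (C \ {s}) hcard hC'
    have hloop : SH 0 (subL D (Pth h C s s)) := by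
      rw [loop_eq hs]
      have h0 : SH 0 (Fst D h C s) := by
        refine SH.union (SH.iUnion fun b => SH.iUnion_prop fun _ => hsf b) ?_
        exact SH.iUnion fun b => SH.iUnion fun b' => SH.iUnion_prop fun _ =>
          (hsf b).cat ((hih _ _).cat (hsf b'))
      refine sf_kst h0 ?_ ?_
      · intro u v hu huv
        rw [← loop_eq hs] at hu huv ⊢
        exact loop_RU hD hu huv
      · intro w m hm hw
        rw [← loop_eq hs] at hw ⊢
        exact loop_pure hD hc hC hm hw
    by_cases hst : t = s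
    · subst hst; exact hloop
    · rw [path_eq hst]
      exact SH.iUnion fun b => SH.iUnion_prop fun _ => hloop.cat ((hsf b).cat (hih _ _))

end Vale.Agent.P329.H62
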