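import Vale.Agent.P329.H62.Path

/-!
# P329 : reversal; words newest letter first
-/

set_option linter.all false

namespace Vale.Agent.P329.H62

open Vale.Agent.P329 Vale.Agent.P329.H157

variable {α : Type}

/-- the reversed expression -/
def revE : GRE α → GRE α
  | .zero => .zero
  | .one => .one
  | .letter a => .letter a
  | .union e f => .union (revE e) (revE f)
  | .concat e f => .concat (revE f) (revE e)
  | .compl e => .compl (revE e)
  | .star e => .star (revE e)

theorem revE_height (e : GRE α) : (revE e).height = e.height := by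
  induction e with
  | zero => rfl
  | one => rfl
  | letter a => rfl
  | union e f ih1 ih2 => simp [revE, GRE.height, ih1, ih2]
  | concat e f ih1 ih2 => simp [revE, GRE.height, ih1, ih2, max_comm]
  | compl e ih => simp [revE, GRE.height, ih]
  | star e ih => simp [revE, GRE.height, ih]

theorem revE_lang (e : GRE α) : ∀ w, w ∈ (revE e).lang ↔ w.reverse ∈ e.lang := by
  induction e with
  | zero => intro w; exact Iff.rfl
  | one =>
    intro w
    change w = [] ↔ w.reverse = []
    simp
  | letter a =>
    intro w
    change w = [a] ↔ w.reverse = [a]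
    constructor
    · rintro rfl; rfl
    · intro h
      have := congrArg List.reverse h
      simpa using this
  | union e f ih1 ih2 =>
    intro w
    change (w ∈ _ ∨ w ∈ _) ↔ (w.reverse ∈ _ ∨ w.reverse ∈ _)
    rw [ih1, ih2]
  | concat e f ih1 ih2 =>
    intro w
    constructor
    · rintro ⟨u, hu, v, hv, rfl⟩
      exact ⟨v.reverse, (ih1 v).mp hv, u.reverse, (ih2 u).mp hu, by simp⟩
    · rintro ⟨u, hu, v, hv, h⟩
      refine ⟨v.reverse, (ih2 _).mpr (by simpa using hv), u.reverse,
        (ih1 _).mpr (by simpa using hu), ?_⟩
      have := congrArg List.reverse h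
      simpa using this
  | compl e ih =>
    intro w
    change ¬ (w ∈ _) ↔ ¬ (w.reverse ∈ _)
    rw [ih]
  | star e ih =>
    intro w
    constructor
    · rintro ⟨L, hL, rfl⟩
      refine ⟨(L.map List.reverse).reverse, ?_, ?_⟩
      · intro u hu
        rw [List.mem_reverse, List.mem_map] at hu
        obtain ⟨x, hx, rfl⟩ := hu
        exact (ih x).mp (hL x hx)
      · rw [List.reverse_flatten]
    · rintro ⟨L, hL, h⟩
      refine ⟨(L.map List.reverse).reverse, ?_, ?_⟩
      · intro u hu
        rw [List.mem_reverse, List.mem_map] at hu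
        obtain ⟨x, hx, rfl⟩ := hu
        exact (ih _).mpr (by simpa using hL x hx)
      · rw [← List.reverse_flatten, h, List.reverse_reverse]

/-- star height is invariant under reversal -/
theorem SH.rev {k : ℕ} {L : Set (List α)} (h : SH k L) : SH k {w | w.reverse ∈ L} := by
  obtain ⟨e, he, rfl⟩ := h
  exact ⟨revE e, by rw [revE_height]; exact he, by ext w; exact revE_lang e w⟩

theorem SH.rev_iff {k : ℕ} {L : Set (List α)} : SH k {w | w.reverse ∈ L} ↔ SH k L := by
  refine ⟨fun h => ?_, SH.rev⟩
  have h1 := SH.rev h
  have h2 : {w : List α | w.reverse ∈ {w | w.reverse ∈ L}} = L := by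
    ext w
    simp
  rwa [h2] at h1

end Vale.Agent.P329.H62
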